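import Vale.Agent.P141.Defs

open MeasureTheory Filter Topology Set
open scoped ENNReal NNReal SchwartzMap ContDiff

namespace Vale.Agent.P141

noncomputable def bump : ContDiffBump (0 : ℝ) := ⟨1/4, 1/2, by norm_num, by norm_num⟩

noncomputable def gR (A : Finset ℤ) (y : ℝ) : ℝ := ∑ a ∈ A, bump (y - a)

lemma bump_ne {z : ℝ} (h : bump z ≠ 0) : |z| < 1/2 := by
  have : z ∈ Function.support bump := h
  rw [bump.support_eq] at this
  simpa [bump, Real.dist_eq] using this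

lemma bump_one {z : ℝ} (h : |z| ≤ 1/4) : bump z = 1 :=
  bump.one_of_mem_closedBall (by simpa [bump, Real.dist_eq] using h)

lemma gR_nonneg (A : Finset ℤ) (y : ℝ) : 0 ≤ gR A y :=
  Finset.sum_nonneg fun _ _ => bump.nonneg

lemma gR_ne {A : Finset ℤ} {y : ℝ} (h : gR A y ≠ 0) : ∃ a ∈ A, |y - a| < 1/2 := by
  obtain ⟨a, ha, h⟩ := Finset.exists_ne_zero_of_sum_ne_zero h
  exact ⟨a, ha, bump_ne h⟩

lemma gR_le (A : Finset ℤ) (y : ℝ) : gR A y ≤ 1 := by
  by_cases h : gR A y = 0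
  · simp [h]
  obtain ⟨a, ha, h⟩ := gR_ne h
  unfold gR
  rw [Finset.sum_eq_single a]
  · exact bump.le_one
  · intro b _ hb
    by_contra hne
    have h2 := bump_ne hne
    apply hb
    have : |(b : ℝ) - a| < 1 := by
      rw [abs_lt] at *; constructor <;> linarith [h.1, h.2, h2.1, h2.2]
    have h3 : |b - a| < 1 := by exact_mod_cast this
    have := Int.abs_lt_one_iff.mp h3
    omega
  · intro h'; exact absurd ha h'

lemma gR_one {A : Finset ℤ} {y : ℝ} {a : ℤ} (ha : a ∈ A) (h : |y - a| ≤ 1/4) : 1 ≤ gR A y := by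
  unfold gR
  calc (1 : ℝ) = bump (y - a) := (bump_one h).symm
    _ ≤ _ := Finset.single_le_sum (f := fun a : ℤ => bump (y - a)) (fun _ _ => bump.nonneg) ha

lemma gR_smooth (A : Finset ℤ) : ContDiff ℝ ∞ (gR A) := by
  unfold gR
  exact ContDiff.sum fun a _ => bump.contDiff.comp (contDiff_id.sub contDiff_const)

lemma gR_cs (A : Finset ℤ) : HasCompactSupport (fun y => (gR A y : ℂ)) := by
  apply HasCompactSupport.intro (K := ⋃ a ∈ A, Icc ((a : ℝ) - 1/2) (a + 1/2))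
  · exact A.isCompact_biUnion fun _ _ => isCompact_Icc
  · intro y hy
    by_contra h
    obtain ⟨a, ha, h⟩ := gR_ne (A := A) (y := y) (by simpa using h)
    apply hy
    simp only [mem_iUnion]
    rw [abs_lt] at h
    exact ⟨a, ha, by constructor <;> linarith [h.1, h.2]⟩

noncomputable def gS (A : Finset ℤ) : 𝓢(ℝ, ℂ) :=
  (gR_cs A).toSchwartzMap (Complex.ofRealCLM.contDiff.comp (gR_smooth A))

lemma gS_apply (A : Finset ℤ) (y : ℝ) : gS A y = gR A y := rfl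

lemma gS_norm (A : Finset ℤ) (p : ℝ≥0∞) :
    eLpNorm (gS A) p volume ≤ (A.card : ℝ≥0∞) ^ (1 / p.toReal) := by
  set U : Set ℝ := ⋃ a ∈ A, Ioo ((a : ℝ) - 1/2) (a + 1/2)
  have h1 : eLpNorm (gS A) p volume ≤ eLpNorm (U.indicator fun _ => (1 : ℝ)) p volume := by
    apply eLpNorm_mono
    intro y
    rw [gS_apply, Complex.norm_real, Real.norm_of_nonneg (gR_nonneg A y)]
    by_cases h : gR A y = 0
    · rw [h]; exact norm_nonneg _
    obtain ⟨a, ha, h⟩ := gR_ne h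
    have : y ∈ U := by
      simp only [U, mem_iUnion]
      rw [abs_lt] at h
      exact ⟨a, ha, by constructor <;> linarith [h.1, h.2]⟩
    simpa [this] using gR_le A y
  refine h1.trans ((eLpNorm_indicator_const_le _ _).trans ?_)
  simp only [enorm_one, one_mul]
  apply ENNReal.rpow_le_rpow _ (by positivity)
  refine (measure_biUnion_finset_le _ _).trans ?_
  have : ∀ a ∈ A, volume (Ioo ((a : ℝ) - 1/2) (a + 1/2)) = 1 := by
    intro a _; rw [Real.volume_Ioo]; norm_num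
  rw [Finset.sum_congr rfl this]; simp

lemma T_lower (N : ℕ) (B₁ B₂ B₃ : Finset ℤ)
    (hB : ∀ b₁ ∈ B₁, ∀ b₂ ∈ B₂, 2 ≤ b₁ - b₂ ∧ b₁ - b₂ ≤ N) (x t : ℤ)
    (h1 : x - t ∈ B₁) (h2 : x - 2 * t ∈ B₂) (h3 : x - 3 * t ∈ B₃) (y : ℝ)
    (hy : |y - x| < 1/16) :
    1 / (8 * ((N : ℝ) + 1)) ≤ ‖T (gS B₁) (gS B₂) (gS B₃) y‖ := by
  set F : ℝ → ℝ := fun s => gR B₁ (y - s) * gR B₂ (y - 2 * s) * gR B₃ (y - 3 * s) / s with hF
  have hsupp : ∀ s, F s ≠ 0 → 1 < s ∧ s < N + 1 := by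
    intro s hs
    have a1 : gR B₁ (y - s) ≠ 0 := fun h => hs (by simp [hF, h])
    have a2 : gR B₂ (y - 2 * s) ≠ 0 := fun h => hs (by simp [hF, h])
    obtain ⟨b₁, hb₁, c1⟩ := gR_ne a1
    obtain ⟨b₂, hb₂, c2⟩ := gR_ne a2
    obtain ⟨d1, d2⟩ := hB b₁ hb₁ b₂ hb₂
    have d1' : (2 : ℝ) ≤ b₁ - b₂ := by exact_mod_cast d1
    have d2' : (b₁ : ℝ) - b₂ ≤ N := by exact_mod_cast d2
    rw [abs_lt] at c1 c2
    constructor <;> linarith [c1.1, c1.2, c2.1, c2.2]
  have hT : T (gS B₁) (gS B₂) (gS B₃) y = ((∫ s in Ioo (1 : ℝ) (N + 1), F s : ℝ) : ℂ) := by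
    apply Filter.Tendsto.limUnder_eq
    apply tendsto_const_nhds.congr'
    have e1 : ∀ᶠ ε in 𝓝[>] (0 : ℝ), ε < 1 := nhdsWithin_le_nhds (eventually_lt_nhds one_pos)
    filter_upwards [e1.prod_mk (eventually_gt_atTop ((N : ℝ) + 1))] with q hq
    unfold Ttr
    have hm : MeasurableSet {t : ℝ | q.1 < |t| ∧ |t| < q.2} :=
      ((isOpen_lt continuous_const continuous_abs).inter
        (isOpen_lt continuous_abs continuous_const)).measurableSet
    rw [← integral_complex_ofReal]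
    symm
    have : ∀ s : ℝ, gS B₁ (y - s) * gS B₂ (y - 2 * s) * gS B₃ (y - 3 * s) / (s : ℂ) = (F s : ℂ) := by
      intro s; simp [hF, gS_apply]
    simp only [this]
    apply setIntegral_eq_of_subset_of_forall_sdiff_eq_zero hm
    · intro s hs
      have : |s| = s := abs_of_pos (by linarith [hs.1])
      simp only [mem_ofPred_eq, this]
      constructor <;> linarith [hs.1, hs.2, hq.1, hq.2]
    · intro s hs
      by_contra h
      exact hs.2 (hsupp s (by simpa using h))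
  have hFm : Measurable F := by
    have c := fun A => (gR_smooth A).continuous
    exact ((((c B₁).comp (by fun_prop)).mul ((c B₂).comp (by fun_prop))).mul
      ((c B₃).comp (by fun_prop))).measurable.div measurable_id
  have hF0 : ∀ s, 0 < s → 0 ≤ F s := fun s hs =>
    div_nonneg (mul_nonneg (mul_nonneg (gR_nonneg _ _) (gR_nonneg _ _)) (gR_nonneg _ _)) hs.le
  have hint : IntegrableOn F (Ioo (1 : ℝ) (N + 1)) := by
    apply Measure.integrableOn_of_bounded (M := 1) measure_Ioo_lt_top.ne hFm.aestronglyMeasurable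
    filter_upwards [ae_restrict_mem measurableSet_Ioo] with s hs
    rw [Real.norm_of_nonneg (hF0 s (by linarith [hs.1]))]
    rw [hF, div_le_one (by linarith [hs.1])]
    have := gR_le B₁ (y - s); have := gR_le B₂ (y - 2 * s); have := gR_le B₃ (y - 3 * s)
    have := gR_nonneg B₁ (y - s); have := gR_nonneg B₂ (y - 2 * s)
    have := gR_nonneg B₃ (y - 3 * s)
    calc _ ≤ (1 : ℝ) * 1 * 1 := by gcongr
      _ ≤ s := by linarith [hs.1]
  obtain ⟨d1, d2⟩ := hB _ h1 _ h2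
  have d1' : (2 : ℝ) ≤ t := by exact_mod_cast (show (2 : ℤ) ≤ t by omega)
  have d2' : (t : ℝ) ≤ N := by exact_mod_cast (show t ≤ (N : ℤ) by omega)
  have hsub : Ioo ((t : ℝ) - 1/16) (t + 1/16) ⊆ Ioo (1 : ℝ) (N + 1) := fun s hs =>
    ⟨by linarith [hs.1], by linarith [hs.2]⟩
  rw [hT, Complex.norm_real]
  refine le_trans ?_ (Real.le_norm_self _)
  refine le_trans ?_ (setIntegral_mono_set hint ?_ hsub.eventuallyLE)
  · refine le_trans ?_ (setIntegral_ge_of_const_le_real (c := 1 / ((N : ℝ) + 1)) measurableSet_Ioo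
      measure_Ioo_lt_top.ne ?_ (hint.mono_set hsub))
    · rw [Real.volume_real_Ioo_of_le (by linarith)]
      apply le_of_eq; field_simp; ring
    · intro s hs
      rw [abs_lt] at hy
      have e1 := gR_one (y := y - s) h1 (by
        push_cast; rw [abs_le]; constructor <;> linarith [hs.1, hs.2, hy.1, hy.2])
      have e2 := gR_one (y := y - 2 * s) h2 (by
        push_cast; rw [abs_le]; constructor <;> linarith [hs.1, hs.2, hy.1, hy.2])
      have e3 := gR_one (y := y - 3 * s) h3 (by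
        push_cast; rw [abs_le]; constructor <;> linarith [hs.1, hs.2, hy.1, hy.2])
      have hs1 := (hsub hs).1
      have hs2 := (hsub hs).2
      have : (1 : ℝ) * 1 * 1 ≤ gR B₁ (y - s) * gR B₂ (y - 2 * s) * gR B₃ (y - 3 * s) := by gcongr
      rw [hF]
      apply div_le_div₀ (by linarith) (by linarith) (by linarith) hs2.le
  · filter_upwards [ae_restrict_mem measurableSet_Ioo] with s hs
    exact hF0 s (by linarith [hs.1])

lemma T_norm (N : ℕ) (B₁ B₂ B₃ X : Finset ℤ)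
    (hB : ∀ b₁ ∈ B₁, ∀ b₂ ∈ B₂, 2 ≤ b₁ - b₂ ∧ b₁ - b₂ ≤ N)
    (hX : ∀ x ∈ X, ∃ t, x - t ∈ B₁ ∧ x - 2 * t ∈ B₂ ∧ x - 3 * t ∈ B₃)
    (r : ℝ≥0∞) (hr : r ≠ 0) (hr' : r ≠ ⊤) :
    ENNReal.ofReal (1 / (8 * ((N : ℝ) + 1))) * ENNReal.ofReal (X.card / 8) ^ (1 / r.toReal) ≤
      eLpNorm (T (gS B₁) (gS B₂) (gS B₃)) r volume := by
  set U : Set ℝ := ⋃ a ∈ X, Ioo ((a : ℝ) - 1/16) (a + 1/16)
  have hU : MeasurableSet U := X.measurableSet_biUnion fun _ _ => measurableSet_Ioo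
  have hv : volume U = ENNReal.ofReal (X.card / 8) := by
    rw [measure_biUnion_finset _ fun _ _ => measurableSet_Ioo]
    · have : ∀ a ∈ X, volume (Ioo ((a : ℝ) - 1/16) (a + 1/16)) = ENNReal.ofReal (1/8) := by
        intro a _; rw [Real.volume_Ioo]; congr 1; ring
      rw [Finset.sum_congr rfl this, Finset.sum_const, nsmul_eq_mul, ← ENNReal.ofReal_natCast,
        ← ENNReal.ofReal_mul (by positivity)]
      congr 1; ring
    · intro a _ b _ hab
      rw [Function.onFun, Set.disjoint_left]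
      intro y h1 h2
      apply hab
      have : |(a : ℝ) - b| < 1 := by
        rw [abs_lt]; constructor <;> linarith [h1.1, h1.2, h2.1, h2.2]
      have h3 : |a - b| < 1 := by exact_mod_cast this
      have := Int.abs_lt_one_iff.mp h3
      omega
  have hc : (0 : ℝ) ≤ 1 / (8 * ((N : ℝ) + 1)) := by positivity
  rw [← hv, ← Real.enorm_of_nonneg hc, ← eLpNorm_indicator_const hU hr hr']
  apply eLpNorm_mono
  intro y
  by_cases h : y ∈ U
  · rw [indicator_of_mem h, Real.norm_of_nonneg hc]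
    simp only [U, mem_iUnion] at h
    obtain ⟨x, hx, hy⟩ := h
    obtain ⟨t, h1, h2, h3⟩ := hX x hx
    exact T_lower N B₁ B₂ B₃ hB x t h1 h2 h3 y (by
      rw [abs_lt]; constructor <;> linarith [hy.1, hy.2])
  · rw [indicator_of_notMem h]; simp

lemma set_ineq {p₁ p₂ p₃ r : ℝ≥0∞} (hr : r ≠ 0) (hr' : r ≠ ⊤) (hb : BoundedAt p₁ p₂ p₃ r) :
    ∃ C : ℝ, 0 ≤ C ∧ ∀ (N : ℕ) (B₁ B₂ B₃ X : Finset ℤ),
      (∀ b₁ ∈ B₁, ∀ b₂ ∈ B₂, 2 ≤ b₁ - b₂ ∧ b₁ - b₂ ≤ N) →
      (∀ x ∈ X, ∃ t, x - t ∈ B₁ ∧ x - 2 * t ∈ B₂ ∧ x - 3 * t ∈ B₃) →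
      1 / (8 * ((N : ℝ) + 1)) * ((X.card : ℝ) / 8) ^ (1 / r.toReal) ≤
        C * (B₁.card : ℝ) ^ (1 / p₁.toReal) * (B₂.card : ℝ) ^ (1 / p₂.toReal) *
          (B₃.card : ℝ) ^ (1 / p₃.toReal) := by
  obtain ⟨C, hC⟩ := hb
  refine ⟨C, C.2, fun N B₁ B₂ B₃ X hB hX => ?_⟩
  have h := (T_norm N B₁ B₂ B₃ X hB hX r hr hr').trans (hC _ _ _)
  have h2 : (C : ℝ≥0∞) * eLpNorm (gS B₁) p₁ volume * eLpNorm (gS B₂) p₂ volume *
      eLpNorm (gS B₃) p₃ volume ≤ (C : ℝ≥0∞) * (B₁.card : ℝ≥0∞) ^ (1 / p₁.toReal) *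
        (B₂.card : ℝ≥0∞) ^ (1 / p₂.toReal) * (B₃.card : ℝ≥0∞) ^ (1 / p₃.toReal) := by
    gcongr <;> exact gS_norm _ _
  have h3 := h.trans h2
  have fin : ∀ (n : ℕ) (p : ℝ≥0∞), (n : ℝ≥0∞) ^ (1 / p.toReal) ≠ ⊤ := fun n p =>
    ENNReal.rpow_ne_top_of_nonneg (by positivity) (by simp)
  have h4 := ENNReal.toReal_mono (ENNReal.mul_ne_top (ENNReal.mul_ne_top
    (ENNReal.mul_ne_top ENNReal.coe_ne_top (fin _ _)) (fin _ _)) (fin _ _)) h3
  simp only [ENNReal.toReal_mul, ← ENNReal.toReal_rpow, ENNReal.coe_toReal,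
    ENNReal.toReal_natCast] at h4
  rwa [ENNReal.toReal_ofReal (by positivity), ENNReal.toReal_ofReal (by positivity)] at h4

end Vale.Agent.P141
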