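import Mathlib

open MeasureTheory Filter Topology
open scoped ENNReal NNReal SchwartzMap

namespace Vale.Agent.P141

/-- The truncated operator `T_{ε,R}`. -/
noncomputable def Ttr (ε R : ℝ) (f₁ f₂ f₃ : ℝ → ℂ) (x : ℝ) : ℂ :=
  ∫ t in {t : ℝ | ε < |t| ∧ |t| < R}, f₁ (x - t) * f₂ (x - 2 * t) * f₃ (x - 3 * t) / (t : ℂ)

/-- The trilinear Hilbert transform: the limit of `T_{ε,R}` as `ε → 0+`, `R → ∞`. -/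
noncomputable def T (f₁ f₂ f₃ : ℝ → ℂ) (x : ℝ) : ℂ :=
  limUnder ((𝓝[>] (0 : ℝ)) ×ˢ (atTop : Filter ℝ)) (fun q => Ttr q.1 q.2 f₁ f₂ f₃ x)

/-- Hölder tuples. -/
def Holder (p₁ p₂ p₃ r : ℝ≥0∞) : Prop :=
  1 < p₁ ∧ 1 < p₂ ∧ 1 < p₃ ∧ 0 < r ∧ r < ∞ ∧ r⁻¹ = p₁⁻¹ + p₂⁻¹ + p₃⁻¹

/-- `T` is bounded at the tuple. -/
def BoundedAt (p₁ p₂ p₃ r : ℝ≥0∞) : Prop :=
  ∃ C : ℝ≥0, ∀ f₁ f₂ f₃ : 𝓢(ℝ, ℂ),
    eLpNorm (T f₁ f₂ f₃) r volume ≤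
      C * eLpNorm f₁ p₁ volume * eLpNorm f₂ p₂ volume * eLpNorm f₃ p₃ volume

/-- Shannon entropy of the integer random variable `Z` on the finite probability space `(ι, w)`. -/
noncomputable def ent {ι : Type} [Fintype ι] (w : ι → ℝ) (Z : ι → ℤ) : ℝ :=
  ∑ a ∈ Finset.univ.image Z, Real.negMulLog (∑ i ∈ Finset.univ.filter (fun i => Z i = a), w i)

end Vale.Agent.P141
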