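import Vale.Agent.P141.An

open Finset

namespace Vale.Agent.P141

def hsh {n q : ℕ} (c : Fin n → ZMod q) (x : Fin n → ℤ) : ZMod q := ∑ i, c i * (x i : ZMod q)

lemma coll_card {n q : ℕ} [Fact q.Prime] (x y : Fin n → ℤ) (i₀ : Fin n)
    (h : ((x i₀ - y i₀ : ℤ) : ZMod q) ≠ 0) :
    (univ.filter fun c : Fin n → ZMod q => hsh c x = hsh c y).card * q =
      Fintype.card (Fin n → ZMod q) := by
  classical
  let f : (Fin n → ZMod q) →+ ZMod q :=
    { toFun := fun c => ∑ i, c i * ((x i - y i : ℤ) : ZMod q)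
      map_zero' := by simp
      map_add' := fun a b => by simp [add_mul, sum_add_distrib] }
  have hs : Function.Surjective f := by
    intro z
    refine ⟨Pi.single i₀ (z * ((x i₀ - y i₀ : ℤ) : ZMod q)⁻¹), ?_⟩
    show ∑ i : Fin n, _ = z
    rw [sum_eq_single i₀]
    · rw [Pi.single_eq_same, mul_assoc, inv_mul_cancel₀ h, mul_one]
    · intro b _ hb; simp [Pi.single_eq_of_ne hb]
    · simp
  have h1 := f.ker.card_mul_index
  rw [AddSubgroup.index_ker, AddMonoidHom.range_eq_top.mpr hs, AddSubgroup.card_top,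
    Nat.card_zmod, Nat.card_eq_fintype_card (α := Fin n → ZMod q)] at h1
  rw [← h1]
  congr 1
  rw [← Nat.card_eq_finsetCard]
  apply Nat.card_congr
  apply Equiv.subtypeEquivRight
  intro c
  simp only [mem_filter, mem_univ, true_and, AddMonoidHom.mem_ker]
  show _ ↔ ∑ i, c i * ((x i - y i : ℤ) : ZMod q) = 0
  simp only [hsh, Int.cast_sub, mul_sub, sum_sub_distrib, sub_eq_zero]

lemma exists_hash {n q : ℕ} [Fact q.Prime] (X : Finset (Fin n → ℤ))
    (hD : ∀ x ∈ X, ∀ y ∈ X, ∀ i, |x i - y i| < q) (hq : 2 * X.card ≤ q) :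
    ∃ c : Fin n → ZMod q, X.card ≤ 2 * (X.image (hsh c)).card := by
  classical
  have hq0 : 0 < q := (Fact.out : q.Prime).pos
  set Q := Fintype.card (Fin n → ZMod q)
  let col : (Fin n → ZMod q) → ℕ := fun c =>
    (X.offDiag.filter fun p => hsh c p.1 = hsh c p.2).card
  have hsum : (∑ c, col c) * q ≤ X.card * X.card * Q := by
    have : ∑ c, col c = ∑ p ∈ X.offDiag,
        (univ.filter fun c : Fin n → ZMod q => hsh c p.1 = hsh c p.2).card := by
      simp only [col, card_filter]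
      exact sum_comm
    rw [this, sum_mul]
    have h2 : ∀ p ∈ X.offDiag,
        (univ.filter fun c : Fin n → ZMod q => hsh c p.1 = hsh c p.2).card * q = Q := by
      intro p hp
      rw [mem_offDiag] at hp
      obtain ⟨i, hi⟩ := Function.ne_iff.mp hp.2.2
      apply coll_card _ _ i
      rw [Ne, ZMod.intCast_zmod_eq_zero_iff_dvd]
      intro hd
      exact hi (sub_eq_zero.mp (Int.eq_zero_of_abs_lt_dvd hd (hD _ hp.1 _ hp.2.1 i)))
    rw [sum_congr rfl h2, sum_const, smul_eq_mul, offDiag_card]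
    exact Nat.mul_le_mul_right _ (Nat.sub_le _ _)
  have : ∃ c, 2 * col c ≤ X.card := by
    by_contra hne
    push Not at hne
    have h1 : ∑ _c : Fin n → ZMod q, X.card < ∑ c, 2 * col c :=
      sum_lt_sum_of_nonempty univ_nonempty fun c _ => hne c
    rw [sum_const, card_univ, smul_eq_mul, ← mul_sum] at h1
    have h2 : Q * X.card * q < 2 * (∑ c, col c) * q := Nat.mul_lt_mul_of_pos_right h1 hq0
    have h3 : 2 * X.card * (X.card * Q) ≤ q * (X.card * Q) := Nat.mul_le_mul_right _ hq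
    nlinarith
  obtain ⟨c, hc⟩ := this
  refine ⟨c, ?_⟩
  set S := X.filter fun x => ∀ y ∈ X, y ≠ x → hsh c x ≠ hsh c y
  have h1 : S.card ≤ (X.image (hsh c)).card := by
    apply card_le_card_of_injOn (hsh c)
    · intro x hx
      simp only [S, coe_filter] at hx
      exact mem_coe.mpr (mem_image_of_mem _ hx.1)
    · intro x hx y hy hxy
      simp only [S, coe_filter] at hx hy
      by_contra hne
      exact hx.2 y hy.1 (Ne.symm hne) hxy
  have h2 : (X \ S).card ≤ col c := by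
    refine le_trans (card_le_card ?_) (card_image_le (f := Prod.fst))
    intro x hx
    simp only [S, mem_sdiff, mem_filter, not_and, not_forall, not_not] at hx
    obtain ⟨y, hy, hne, h⟩ := hx.2 hx.1
    exact mem_image.mpr ⟨(x, y), mem_filter.mpr ⟨mem_offDiag.mpr ⟨hx.1, hy, hne.symm⟩, h⟩, rfl⟩
  have h3 : (X \ S).card + S.card = X.card := card_sdiff_add_card_eq_card (filter_subset _ X)
  omega

lemma card_lift {q : ℕ} (hq : 0 < q) (B : Finset ℤ) (S : Finset (ZMod q)) (s : ℤ)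
    (h : ∀ b ∈ B, -3 * (q : ℤ) ≤ b + s ∧ b + s < q ∧ ((b + s : ℤ) : ZMod q) ∈ S) :
    B.card ≤ 4 * S.card := by
  have hq' : (0 : ℤ) < q := by exact_mod_cast hq
  have : 4 * S.card = (Icc (-3 : ℤ) 0 ×ˢ S).card := by rw [card_product]; simp
  rw [this]
  apply card_le_card_of_injOn fun b => ((b + s) / q, ((b + s : ℤ) : ZMod q))
  · intro b hb
    obtain ⟨h1, h2, h3⟩ := h b hb
    simp only [coe_product, Set.mem_prod, mem_coe, mem_Icc]
    refine ⟨⟨Int.le_ediv_of_mul_le hq' h1, ?_⟩, h3⟩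
    have := Int.ediv_lt_of_lt_mul hq' (show b + s < 1 * q by linarith)
    omega
  · intro a _ b _ hab
    simp only [Prod.mk.injEq] at hab
    have h1 := (ZMod.intCast_eq_intCast_iff' _ _ _).mp hab.2
    have h2 := Int.emod_add_mul_ediv (a + s) q
    have h3 := Int.emod_add_mul_ediv (b + s) q
    rw [h1, hab.1] at h2
    omega

lemma seq_sets {ι : Type} {n : ℕ} (X Y : ι → ℤ) (D : ℕ) (hD : ∀ i j, |X i - X j| ≤ D)
    (G : Finset (Fin n → ι)) (hG : G.Nonempty) :
    ∃ (N : ℕ) (B₁ B₂ B₃ X' : Finset ℤ),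
      (∀ b₁ ∈ B₁, ∀ b₂ ∈ B₂, 2 ≤ b₁ - b₂ ∧ b₁ - b₂ ≤ N) ∧
      (∀ x ∈ X', ∃ t, x - t ∈ B₁ ∧ x - 2 * t ∈ B₂ ∧ x - 3 * t ∈ B₃) ∧
      N + 1 ≤ (10 * D + 33) * (G.image fun ω i => X (ω i)).card ∧
      (G.image fun ω i => X (ω i)).card ≤ 2 * X'.card ∧
      B₁.card ≤ 4 * (G.image fun ω i => X (ω i) - Y (ω i)).card ∧
      B₂.card ≤ 4 * (G.image fun ω i => X (ω i) - 2 * Y (ω i)).card ∧
      B₃.card ≤ 4 * (G.image fun ω i => X (ω i) - 3 * Y (ω i)).card := by
  classical
  set X0 := G.image fun ω i => X (ω i)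
  have hX0 : 1 ≤ X0.card := (hG.image _).card_pos
  obtain ⟨q, hqp, hq1, hq2⟩ := Nat.exists_prime_lt_and_le_two_mul (2 * X0.card + D + 1) (by omega)
  have : Fact q.Prime := ⟨hqp⟩
  have hq0 := hqp.pos
  obtain ⟨c, hc⟩ := exists_hash (q := q) X0 (by
    intro x hx y hy i
    obtain ⟨ω, -, rfl⟩ := mem_image.mp hx
    obtain ⟨ω', -, rfl⟩ := mem_image.mp hy
    have := hD (ω i) (ω' i)
    have h2 : (D : ℤ) < q := by exact_mod_cast (show D < q by omega)
    exact this.trans_lt h2) (by omega)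
  let x : (Fin n → ι) → ℤ := fun ω => (hsh c fun i => X (ω i)).val
  let t : (Fin n → ι) → ℤ := fun ω => (hsh c fun i => Y (ω i)).val
  have hx : ∀ ω, 0 ≤ x ω ∧ x ω < q := fun ω =>
    ⟨Int.natCast_nonneg _, by simp only [x]; exact_mod_cast ZMod.val_lt _⟩
  have ht : ∀ ω, 0 ≤ t ω ∧ t ω < q := fun ω =>
    ⟨Int.natCast_nonneg _, by simp only [t]; exact_mod_cast ZMod.val_lt _⟩
  set M : ℤ := 2 * q + 2
  have key : ∀ j : ℤ, 0 ≤ j → j ≤ 3 → (G.image fun ω => x ω - j * (t ω + M)).card ≤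
      4 * (G.image fun ω i => X (ω i) - j * Y (ω i)).card := by
    intro j j0 j3
    refine (card_lift hq0 _ ((G.image fun ω i => X (ω i) - j * Y (ω i)).image (hsh c)) (j * M)
      ?_).trans (Nat.mul_le_mul_left _ card_image_le)
    intro b hb
    obtain ⟨ω, hω, rfl⟩ := mem_image.mp hb
    have e : x ω - j * (t ω + M) + j * M = x ω - j * t ω := by ring
    rw [e]
    obtain ⟨a1, a2⟩ := hx ω
    obtain ⟨a3, a4⟩ := ht ω
    refine ⟨by nlinarith, by nlinarith, mem_image.mpr ⟨_, mem_image_of_mem _ hω, ?_⟩⟩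
    have cv : ∀ z : ZMod q, (((z.val : ℕ) : ℤ) : ZMod q) = z := fun z => by simp
    simp only [x, t, Int.cast_sub, Int.cast_mul, cv, hsh, mul_sub, sum_sub_distrib, mul_sum]
    congr 1
    exact sum_congr rfl fun i _ => by ring
  refine ⟨5 * q + 2, G.image fun ω => x ω - 1 * (t ω + M), G.image fun ω => x ω - 2 * (t ω + M),
    G.image fun ω => x ω - 3 * (t ω + M), G.image x, ?_, ?_, ?_, ?_, ?_, key 2 (by norm_num)
    (by norm_num), key 3 (by norm_num) (by norm_num)⟩
  · intro b₁ h1 b₂ h2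
    obtain ⟨ω, -, rfl⟩ := mem_image.mp h1
    obtain ⟨ω', -, rfl⟩ := mem_image.mp h2
    have := hx ω; have := hx ω'; have := ht ω; have := ht ω'
    push_cast
    omega
  · intro a ha
    obtain ⟨ω, hω, rfl⟩ := mem_image.mp ha
    refine ⟨t ω + M, mem_image.mpr ⟨ω, hω, by ring⟩, mem_image_of_mem _ hω, mem_image_of_mem _ hω⟩
  · nlinarith
  · refine hc.trans (Nat.mul_le_mul_left _ ?_)
    have : G.image x = (X0.image (hsh c)).image fun z : ZMod q => (z.val : ℤ) := by
      simp only [X0, image_image]; rfl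
    have inj : Function.Injective fun z : ZMod q => (z.val : ℤ) := fun a b hab =>
      ZMod.val_injective q (Nat.cast_injective (R := ℤ) hab)
    rw [this, card_image_of_injective _ inj]
  · simpa using key 1 (by norm_num) (by norm_num)

end Vale.Agent.P141
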