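import Vale.Agent.P141.Typ

open Finset Filter Topology
open scoped ENNReal

namespace Vale.Agent.P141

lemma Holder.sum {p₁ p₂ p₃ r : ℝ≥0∞} (h : Holder p₁ p₂ p₃ r) :
    (r⁻¹).toReal = (p₁⁻¹).toReal + (p₂⁻¹).toReal + (p₃⁻¹).toReal := by
  obtain ⟨h1, h2, h3, -, -, h⟩ := h
  have f : ∀ p : ℝ≥0∞, 1 < p → p⁻¹ ≠ ⊤ := fun p hp =>
    ENNReal.inv_ne_top.mpr (zero_lt_one.trans hp).ne'
  rw [h, ENNReal.toReal_add (ENNReal.add_ne_top.mpr ⟨f _ h1, f _ h2⟩) (f _ h3),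
    ENNReal.toReal_add (f _ h1) (f _ h2)]

theorem crit {ι : Type} [Fintype ι] (w : ι → ℝ) (X Y : ι → ℤ) (hw : ∀ i, 0 < w i)
    (h1 : ∑ i, w i = 1) {p₁ p₂ p₃ r : ℝ≥0∞} (hH : Holder p₁ p₂ p₃ r)
    (hlt : (p₁⁻¹).toReal * ent w (fun i => X i - Y i) +
      (p₂⁻¹).toReal * ent w (fun i => X i - 2 * Y i) +
      (p₃⁻¹).toReal * ent w (fun i => X i - 3 * Y i) < ((r⁻¹).toReal - 1) * ent w X) :
    ¬ BoundedAt p₁ p₂ p₃ r := by
  classical
  intro hb
  obtain ⟨C, hC0, hC⟩ := set_ineq hH.2.2.2.1.ne' hH.2.2.2.2.1.ne hb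
  have hs := hH.sum
  simp only [one_div, ← ENNReal.toReal_inv] at hC
  have t1 : 0 ≤ (p₁⁻¹).toReal := ENNReal.toReal_nonneg
  have t2 : 0 ≤ (p₂⁻¹).toReal := ENNReal.toReal_nonneg
  have t3 : 0 ≤ (p₃⁻¹).toReal := ENNReal.toReal_nonneg
  generalize (p₁⁻¹).toReal = a₁ at *
  generalize (p₂⁻¹).toReal = a₂ at *
  generalize (p₃⁻¹).toReal = a₃ at *
  generalize (r⁻¹).toReal = θ at *
  have e0 := ent_nonneg hw h1 X
  have e1 := ent_nonneg hw h1 (fun i => X i - Y i)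
  have e2 := ent_nonneg hw h1 (fun i => X i - 2 * Y i)
  have e3 := ent_nonneg hw h1 (fun i => X i - 3 * Y i)
  have hθ : 0 < θ - 1 := by
    by_contra h
    have := mul_nonpos_of_nonpos_of_nonneg (not_lt.mp h) e0
    have := mul_nonneg t1 e1; have := mul_nonneg t2 e2; have := mul_nonneg t3 e3
    linarith
  set D : ℕ := univ.sup fun p : ι × ι => (X p.1 - X p.2).natAbs
  have hD : ∀ i j, |X i - X j| ≤ D := by
    intro i j
    rw [← Int.natCast_natAbs]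
    exact_mod_cast le_sup (f := fun p : ι × ι => (X p.1 - X p.2).natAbs) (mem_univ (i, j))
  set H0 := ent w X
  set H1 := ent w (fun i => X i - Y i)
  set H2 := ent w (fun i => X i - 2 * Y i)
  set H3 := ent w (fun i => X i - 3 * Y i)
  set δ := (θ - 1) * H0 - (a₁ * H1 + a₂ * H2 + a₃ * H3) with hδ
  have hδ0 : 0 < δ := by linarith
  have hθ0 : 0 < θ := by linarith
  set ε := δ / (4 * θ) with hε
  have hε0 : 0 < ε := by positivity
  have hε1 : θ * ε = δ / 4 := by rw [hε]; field_simp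
  set K : ℝ := 10 * D + 33
  have hK : 0 < K := by positivity
  set K' : ℝ := 8 * K * 16 ^ θ * C * 4 ^ θ * 2 ^ (θ - 1)
  obtain ⟨n, ⟨G, hG, b0, b1, b2, b3⟩, hn⟩ := ((typical hw h1 X (fun i => X i - Y i)
    (fun i => X i - 2 * Y i) (fun i => X i - 3 * Y i) hε0).and
    (tendsto_natCast_atTop_atTop (R := ℝ).eventually_ge_atTop (2 * K' / δ))).exists
  obtain ⟨N, B₁, B₂, B₃, X', c1, c2, c3, c4, c5, c6, c7⟩ := seq_sets X Y D hD G hG
  have main := hC N B₁ B₂ B₃ X' c1 c2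
  set m : ℝ := ((G.image fun ω i => X (ω i)).card : ℝ) with hm
  have hm0 : 0 < m := lt_of_lt_of_le (by positivity) b0
  have c3' : (N : ℝ) + 1 ≤ K * m := by simp only [K, hm]; exact_mod_cast c3
  have c4' : m / 16 ≤ (X'.card : ℝ) / 8 := by
    have : m ≤ 2 * X'.card := by simp only [hm]; exact_mod_cast c4
    linarith
  have bd : ∀ (B k : ℕ) (L a : ℝ), B ≤ 4 * k → (k : ℝ) ≤ Real.exp L → 0 ≤ a →
      (B : ℝ) ^ a ≤ 4 ^ a * Real.exp (L * a) := by
    intro B k L a u1 u2 u3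
    have : (B : ℝ) ≤ 4 * k := by exact_mod_cast u1
    rw [Real.exp_mul, ← Real.mul_rpow (by norm_num) (Real.exp_pos _).le]
    exact Real.rpow_le_rpow (Nat.cast_nonneg _) (by linarith) u3
  have lhs : m ^ (θ - 1) / (8 * K * 16 ^ θ) ≤ (8 * ((N : ℝ) + 1))⁻¹ * ((X'.card : ℝ) / 8) ^ θ := by
    calc m ^ (θ - 1) / (8 * K * 16 ^ θ) = (8 * (K * m))⁻¹ * (m / 16) ^ θ := by
          rw [Real.div_rpow hm0.le (by norm_num), Real.rpow_sub_one hm0.ne']
          field_simp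
      _ ≤ _ := by gcongr
  have rhs : C * (B₁.card : ℝ) ^ a₁ * (B₂.card : ℝ) ^ a₂ * (B₃.card : ℝ) ^ a₃ ≤
      C * 4 ^ θ * Real.exp (n * (a₁ * H1 + a₂ * H2 + a₃ * H3 + θ * ε)) := by
    calc _ ≤ C * (4 ^ a₁ * Real.exp (n * (H1 + ε) * a₁)) * (4 ^ a₂ * Real.exp (n * (H2 + ε) * a₂)) *
          (4 ^ a₃ * Real.exp (n * (H3 + ε) * a₃)) := by
          gcongr
          · exact bd _ _ _ _ c5 b1 t1
          · exact bd _ _ _ _ c6 b2 t2
          · exact bd _ _ _ _ c7 b3 t3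
      _ = _ := by
          rw [hs, Real.rpow_add (by norm_num), Real.rpow_add (by norm_num),
            show (n : ℝ) * (a₁ * H1 + a₂ * H2 + a₃ * H3 + (a₁ + a₂ + a₃) * ε) =
              n * (H1 + ε) * a₁ + n * (H2 + ε) * a₂ + n * (H3 + ε) * a₃ by ring,
            Real.exp_add, Real.exp_add]
          ring
  have low : Real.exp (n * (H0 - ε) * (θ - 1)) / 2 ^ (θ - 1) ≤ m ^ (θ - 1) := by
    rw [Real.exp_mul, ← Real.div_rpow (Real.exp_pos _).le (by norm_num)]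
    exact Real.rpow_le_rpow (by positivity) (by linarith) hθ.le
  have fin1 := (lhs.trans main).trans rhs
  rw [div_le_iff₀ (by positivity)] at fin1 low
  have fin2 : Real.exp (n * (H0 - ε) * (θ - 1)) ≤
      K' * Real.exp (n * (a₁ * H1 + a₂ * H2 + a₃ * H3 + θ * ε)) := by
    refine low.trans ?_
    calc _ ≤ C * 4 ^ θ * Real.exp (n * (a₁ * H1 + a₂ * H2 + a₃ * H3 + θ * ε)) *
          (8 * K * 16 ^ θ) * 2 ^ (θ - 1) := by gcongr
      _ = _ := by simp only [K']; ring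
  rw [← div_le_iff₀ (Real.exp_pos _), ← Real.exp_sub] at fin2
  have g1 := Real.add_one_le_exp
    (n * (H0 - ε) * (θ - 1) - n * (a₁ * H1 + a₂ * H2 + a₃ * H3 + θ * ε))
  have g2 : (n : ℝ) * (H0 - ε) * (θ - 1) - n * (a₁ * H1 + a₂ * H2 + a₃ * H3 + θ * ε) =
      n * (δ / 2) + n * ε := by
    have : (H0 - ε) * (θ - 1) - (a₁ * H1 + a₂ * H2 + a₃ * H3 + θ * ε) = δ / 2 + ε := by
      rw [hδ] at hε1 ⊢; linarith
    rw [← mul_add, ← this]; ring
  rw [div_le_iff₀ hδ0] at hn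
  have g3 : 0 ≤ (n : ℝ) * ε := by positivity
  rw [g2] at g1 fin2
  linarith

lemma ent_nat {ι : Type} [Fintype ι] (k : ι → ℕ) (hk : ∀ i, 0 < k i) (m : ℕ) (hm : ∑ i, k i = m)
    (hm0 : 0 < m) (Z : ι → ℤ) : m * ent (fun i => (k i : ℝ) / m) Z = m * Real.log m -
      Real.log ((∏ i, (∑ j ∈ univ.filter (fun j => Z j = Z i), k j) ^ k i : ℕ) : ℝ) := by
  have hp : ∀ i, (0 : ℝ) < ∑ j ∈ univ.filter (fun j => Z j = Z i), (k j : ℝ) := fun i =>
    sum_pos (fun j _ => by exact_mod_cast hk j) ⟨i, by simp⟩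
  have hm' : (0 : ℝ) < m := by exact_mod_cast hm0
  have hm2 : ∑ i, (k i : ℝ) = m := by exact_mod_cast hm
  rw [ent_eq, Nat.cast_prod, Real.log_prod (fun i _ => by
    push_cast; exact pow_ne_zero _ (hp i).ne'), mul_sum]
  have : (m : ℝ) * Real.log m = ∑ i, (k i : ℝ) * Real.log m := by rw [← sum_mul, hm2]
  rw [this, ← sum_sub_distrib]
  apply sum_congr rfl
  intro i _
  unfold mg
  push_cast
  rw [← sum_div, Real.log_div (hp i).ne' hm'.ne', Real.log_pow]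
  field_simp
  ring

lemma ent_ratio {ι : Type} [Fintype ι] (k : ι → ℕ) (hk : ∀ i, 0 < k i) (m : ℕ) (hm : ∑ i, k i = m)
    (hm0 : 0 < m) (Z Z₀ : ι → ℤ) (u v : ℕ)
    (h : m ^ (m * v) * (∏ i, (∑ j ∈ univ.filter (fun j => Z₀ j = Z₀ i), k j) ^ k i) ^ u <
      m ^ (m * u) * (∏ i, (∑ j ∈ univ.filter (fun j => Z j = Z i), k j) ^ k i) ^ v) :
    v * ent (fun i => (k i : ℝ) / m) Z < u * ent (fun i => (k i : ℝ) / m) Z₀ := by
  have a := ent_nat k hk m hm hm0 Z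
  have b := ent_nat k hk m hm hm0 Z₀
  have hp : ∀ Z : ι → ℤ, 0 < ∏ i, (∑ j ∈ univ.filter (fun j => Z j = Z i), k j) ^ k i := fun Z =>
    prod_pos fun i _ => pow_pos (sum_pos (fun j _ => hk j) ⟨i, by simp⟩) _
  have p0 := hp Z₀
  have p1 := hp Z
  generalize ∏ i, (∑ j ∈ univ.filter (fun j => Z₀ j = Z₀ i), k j) ^ k i = P₀ at *
  generalize ∏ i, (∑ j ∈ univ.filter (fun j => Z j = Z i), k j) ^ k i = P at *
  have hm' : (0 : ℝ) < m := by exact_mod_cast hm0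
  have p0' : (0 : ℝ) < P₀ := by exact_mod_cast p0
  have p1' : (0 : ℝ) < P := by exact_mod_cast p1
  have h' : (m : ℝ) ^ (m * v) * (P₀ : ℝ) ^ u < (m : ℝ) ^ (m * u) * (P : ℝ) ^ v := by
    exact_mod_cast h
  have h2 := Real.log_lt_log (by positivity) h'
  rw [Real.log_mul (by positivity) (by positivity), Real.log_mul (by positivity) (by positivity),
    Real.log_pow, Real.log_pow, Real.log_pow, Real.log_pow] at h2
  push_cast at h2
  apply lt_of_mul_lt_mul_left _ hm'.le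
  calc _ = v * (m * ent (fun i => (k i : ℝ) / m) Z) := by ring
    _ < u * (m * ent (fun i => (k i : ℝ) / m) Z₀) := by rw [a, b]; linarith
    _ = _ := by ring

def xX : Fin 20 → ℤ := ![-4, -5, 0, -1, -2, 4, 3, 2, 1, 8, 7, 6, 5, 12, 11, 10, 9, 15, 14, 13]
def xY : Fin 20 → ℤ := ![-4, -5, -2, -3, -4, 0, -1, -2, -3, 2, 1, 0, -1, 4, 3, 2, 1, 5, 4, 3]
def xk : Fin 20 → ℕ := ![2, 1, 11, 12, 4, 20, 39, 25, 5, 11, 39, 45, 18, 2, 12, 25, 18, 1, 4, 5]

theorem region {p₁ p₂ p₃ r : ℝ≥0∞} (hH : Holder p₁ p₂ p₃ r)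
    (h : 1 ≤ 0.455 * (p₁⁻¹).toReal + 0.4975 * (p₂⁻¹).toReal + 0.455 * (p₃⁻¹).toReal) :
    ¬ BoundedAt p₁ p₂ p₃ r := by
  have hk : ∀ i, 0 < xk i := by decide
  have hm : ∑ i, xk i = 299 := by decide
  have a1 := ent_ratio xk hk 299 hm (by norm_num) (fun i => xX i - xY i) xX 109 200
    (by decide +kernel)
  have a2 := ent_ratio xk hk 299 hm (by norm_num) (fun i => xX i - 2 * xY i) xX 201 400
    (by decide +kernel)
  have a3 := ent_ratio xk hk 299 hm (by norm_num) (fun i => xX i - 3 * xY i) xX 109 200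
    (by decide +kernel)
  have hw : ∀ i, 0 < (xk i : ℝ) / (299 : ℕ) := fun i => by have := hk i; positivity
  have h1 : ∑ i, (xk i : ℝ) / (299 : ℕ) = 1 := by
    rw [← sum_div, ← Nat.cast_sum, hm]; norm_num
  apply crit _ xX xY hw h1 hH
  rw [hH.sum]
  have e0 := ent_nonneg hw h1 xX
  have t1 : 0 ≤ (p₁⁻¹).toReal := ENNReal.toReal_nonneg
  have t2 : 0 ≤ (p₂⁻¹).toReal := ENNReal.toReal_nonneg
  have t3 : 0 ≤ (p₃⁻¹).toReal := ENNReal.toReal_nonneg
  generalize (p₁⁻¹).toReal = b₁ at *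
  generalize (p₂⁻¹).toReal = b₂ at *
  generalize (p₃⁻¹).toReal = b₃ at *
  push_cast at a1 a2 a3 e0 ⊢
  generalize ent _ xX = H0 at *
  generalize ent _ (fun i => xX i - xY i) = H1 at *
  generalize ent _ (fun i => xX i - 2 * xY i) = H2 at *
  generalize ent _ (fun i => xX i - 3 * xY i) = H3 at *
  have g1 : 0 < 0.545 * H0 - H1 := by linarith
  have g2 : 0 < 0.5025 * H0 - H2 := by linarith
  have g3 : 0 < 0.545 * H0 - H3 := by linarith
  have k0 := mul_le_mul_of_nonneg_right h e0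
  have k : 0 < b₁ * (0.545 * H0 - H1) + b₂ * (0.5025 * H0 - H2) + b₃ * (0.545 * H0 - H3) := by
    have := mul_nonneg t1 g1.le; have := mul_nonneg t2 g2.le; have := mul_nonneg t3 g3.le
    rcases t1.eq_or_lt with z1 | z1
    · rcases t2.eq_or_lt with z2 | z2
      · have : 0 < b₃ := by linarith
        have := mul_pos this g3; linarith
      · have := mul_pos z2 g2; linarith
    · have := mul_pos z1 g1; linarith
  nlinarith

end Vale.Agent.P141
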