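import Vale.Agent.P141.Hash

open Finset Filter Topology

namespace Vale.Agent.P141

variable {ι : Type} [Fintype ι]

lemma chernoff (w Y : ι → ℝ) (hw : ∀ i, 0 < w i) (h1 : ∑ i, w i = 1) (hY : ∑ i, w i * Y i < 0)
    {δ : ℝ} (hδ : 0 < δ) : ∀ᶠ n : ℕ in atTop,
      ∑ ω ∈ univ.filter (fun ω : Fin n → ι => 0 ≤ ∑ i, Y (ω i)), ∏ i, w (ω i) ≤ δ := by
  classical
  let ψ : ℝ → ℝ := fun s => ∑ i, w i * Real.exp (s * Y i)
  have hd : HasDerivAt ψ (∑ i, w i * Y i) 0 := by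
    apply HasDerivAt.fun_sum
    intro i _
    have := (((hasDerivAt_id (0 : ℝ)).mul_const (Y i)).exp).const_mul (w i)
    simpa using this
  obtain ⟨s, hs, hs0⟩ := ((hd.tendsto_slope_zero_right.eventually (gt_mem_nhds hY)).and
    self_mem_nhdsWithin).exists
  have hs0 : 0 < s := hs0
  have hψ0 : ψ 0 = 1 := by simp [ψ, h1]
  have hψ : ψ s < 1 := by
    rw [zero_add, hψ0, smul_eq_mul] at hs
    have := (mul_neg_iff.mp hs).resolve_right (fun h => absurd h.1 (by simp [hs0.le]))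
    linarith [this.2]
  have hψ1 : 0 ≤ ψ s := sum_nonneg fun i _ => mul_nonneg (hw i).le (Real.exp_pos _).le
  filter_upwards [(tendsto_pow_atTop_nhds_zero_of_lt_one hψ1 hψ).eventually (ge_mem_nhds hδ)]
    with n hn
  refine le_trans ?_ hn
  have e : ψ s ^ n = ∑ ω : Fin n → ι, ∏ i, (w (ω i) * Real.exp (s * Y (ω i))) := by
    have := prod_univ_sum (fun _ : Fin n => (univ : Finset ι))
      (fun _ j => w j * Real.exp (s * Y j))
    rw [Fintype.piFinset_univ] at this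
    rw [← this]; simp [ψ]
  rw [e]
  refine le_trans (sum_le_sum ?_) (sum_le_sum_of_subset_of_nonneg (filter_subset _ _) ?_)
  · intro ω hω
    rw [prod_mul_distrib, ← Real.exp_sum, ← mul_sum]
    have h0 : 0 ≤ ∏ i, w (ω i) := prod_nonneg fun i _ => (hw _).le
    have := Real.one_le_exp (mul_nonneg hs0.le (mem_filter.mp hω).2)
    nlinarith
  · intro ω _ _
    exact prod_nonneg fun i _ => mul_nonneg (hw _).le (Real.exp_pos _).le

noncomputable def mg (w : ι → ℝ) (Z : ι → ℤ) (a : ℤ) : ℝ :=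
  ∑ i ∈ univ.filter (fun i => Z i = a), w i

lemma mg_pos {w : ι → ℝ} (hw : ∀ i, 0 < w i) (Z : ι → ℤ) (i : ι) : 0 < mg w Z (Z i) :=
  sum_pos (fun j _ => hw j) ⟨i, by simp⟩

lemma mg_sum {w : ι → ℝ} (h1 : ∑ i, w i = 1) (Z : ι → ℤ) :
    ∑ a ∈ univ.image Z, mg w Z a = 1 := by
  rw [← h1]
  exact sum_fiberwise_of_maps_to (fun i hi => mem_image_of_mem _ hi) _

lemma ent_eq (w : ι → ℝ) (Z : ι → ℤ) :
    ent w Z = ∑ i, w i * (-Real.log (mg w Z (Z i))) := by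
  rw [← sum_fiberwise_of_maps_to (s := univ) (t := univ.image Z) (g := Z)
    (fun i hi => mem_image_of_mem _ hi)]
  apply sum_congr rfl
  intro a _
  have : ∑ i ∈ univ.filter (fun i => Z i = a), w i * (-Real.log (mg w Z (Z i))) =
      ∑ i ∈ univ.filter (fun i => Z i = a), w i * (-Real.log (mg w Z a)) :=
    sum_congr rfl fun i hi => by rw [(mem_filter.mp hi).2]
  rw [this, ← sum_mul, Real.negMulLog]
  unfold mg; ring

lemma ent_nonneg {w : ι → ℝ} (hw : ∀ i, 0 < w i) (h1 : ∑ i, w i = 1) (Z : ι → ℤ) :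
    0 ≤ ent w Z := by
  apply sum_nonneg
  intro a _
  apply Real.negMulLog_nonneg (sum_nonneg fun i _ => (hw i).le)
  rw [← h1]
  exact sum_le_sum_of_subset_of_nonneg (filter_subset _ _) fun i _ _ => (hw i).le

lemma prod_mg {w : ι → ℝ} (hw : ∀ i, 0 < w i) (Z : ι → ℤ) {n : ℕ} (ω : Fin n → ι) :
    ∏ i, mg w Z (Z (ω i)) = Real.exp (-∑ i, -Real.log (mg w Z (Z (ω i)))) := by
  rw [← sum_neg_distrib, Real.exp_sum]
  exact prod_congr rfl fun i _ => by rw [neg_neg, Real.exp_log (mg_pos hw Z _)]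

lemma card_upper {w : ι → ℝ} (hw : ∀ i, 0 < w i) (h1 : ∑ i, w i = 1) (Z : ι → ℤ) {n : ℕ}
    (G : Finset (Fin n → ι)) (L : ℝ) (hG : ∀ ω ∈ G, ∑ i, -Real.log (mg w Z (Z (ω i))) ≤ L) :
    ((G.image fun ω i => Z (ω i)).card : ℝ) ≤ Real.exp L := by
  have h2 : ((G.image fun ω i => Z (ω i)).card : ℝ) * Real.exp (-L) ≤ 1 := by
    have e := prod_univ_sum (fun _ : Fin n => univ.image Z) (fun _ a => mg w Z a)
    simp only [mg_sum h1, prod_const_one] at e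
    rw [e, ← nsmul_eq_mul, ← sum_const]
    refine le_trans (sum_le_sum ?_) (sum_le_sum_of_subset_of_nonneg ?_ ?_)
    · intro a ha
      obtain ⟨ω, hω, rfl⟩ := mem_image.mp ha
      rw [prod_mg hw]
      exact Real.exp_le_exp.mpr (neg_le_neg (hG ω hω))
    · intro a ha
      obtain ⟨ω, hω, rfl⟩ := mem_image.mp ha
      simp
    · intro a _ _
      exact prod_nonneg fun i _ => sum_nonneg fun j _ => (hw j).le
  rw [Real.exp_neg, ← div_eq_mul_inv, div_le_one (Real.exp_pos _)] at h2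
  exact h2

lemma card_lower {w : ι → ℝ} (hw : ∀ i, 0 < w i) (Z : ι → ℤ) {n : ℕ}
    (G : Finset (Fin n → ι)) (L : ℝ) (hG : ∀ ω ∈ G, L ≤ ∑ i, -Real.log (mg w Z (Z (ω i)))) :
    (∑ ω ∈ G, ∏ i, w (ω i)) * Real.exp L ≤ ((G.image fun ω i => Z (ω i)).card : ℝ) := by
  classical
  have h2 : ∑ ω ∈ G, ∏ i, w (ω i) ≤ ((G.image fun ω i => Z (ω i)).card : ℝ) * Real.exp (-L) := by
    rw [← sum_fiberwise_of_maps_to (s := G) (g := fun ω i => Z (ω i))
      (fun ω hω => mem_image_of_mem _ hω), ← nsmul_eq_mul, ← sum_const]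
    apply sum_le_sum
    intro a ha
    obtain ⟨ω, hω, rfl⟩ := mem_image.mp ha
    refine le_trans ?_ ((prod_mg hw Z ω).le.trans (Real.exp_le_exp.mpr (neg_le_neg (hG ω hω))))
    unfold mg
    rw [prod_univ_sum]
    apply sum_le_sum_of_subset_of_nonneg
    · intro η hη
      have := (mem_filter.mp hη).2
      simp only [Fintype.mem_piFinset, mem_filter, mem_univ, true_and]
      exact fun i => congrFun this i
    · intro η _ _
      exact prod_nonneg fun i _ => (hw _).le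
  rw [Real.exp_neg, ← div_eq_mul_inv, le_div_iff₀ (Real.exp_pos _)] at h2
  exact h2

lemma typical {w : ι → ℝ} (hw : ∀ i, 0 < w i) (h1 : ∑ i, w i = 1) (Z₀ Z₁ Z₂ Z₃ : ι → ℤ)
    {ε : ℝ} (hε : 0 < ε) : ∀ᶠ n : ℕ in atTop, ∃ G : Finset (Fin n → ι), G.Nonempty ∧
      1 / 2 * Real.exp (n * (ent w Z₀ - ε)) ≤ ((G.image fun ω i => Z₀ (ω i)).card : ℝ) ∧
      ((G.image fun ω i => Z₁ (ω i)).card : ℝ) ≤ Real.exp (n * (ent w Z₁ + ε)) ∧
      ((G.image fun ω i => Z₂ (ω i)).card : ℝ) ≤ Real.exp (n * (ent w Z₂ + ε)) ∧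
      ((G.image fun ω i => Z₃ (ω i)).card : ℝ) ≤ Real.exp (n * (ent w Z₃ + ε)) := by
  classical
  have up : ∀ Z : ι → ℤ, ∑ i, w i * (-Real.log (mg w Z (Z i)) - (ent w Z + ε)) < 0 := by
    intro Z
    simp only [mul_sub, sum_sub_distrib, ← ent_eq, ← sum_mul, h1]; linarith
  have lo : ∑ i, w i * ((ent w Z₀ - ε) - -Real.log (mg w Z₀ (Z₀ i))) < 0 := by
    rw [sum_congr rfl fun i _ => mul_sub (w i) _ _, sum_sub_distrib, ← ent_eq, ← sum_mul, h1]
    linarith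
  have h8 : (0 : ℝ) < 1 / 8 := by norm_num
  filter_upwards [chernoff w _ hw h1 lo h8, chernoff w _ hw h1 (up Z₁) h8,
    chernoff w _ hw h1 (up Z₂) h8, chernoff w _ hw h1 (up Z₃) h8] with n a0 a1 a2 a3
  set S0 := univ.filter (fun ω : Fin n → ι =>
    0 ≤ ∑ i, ((ent w Z₀ - ε) - -Real.log (mg w Z₀ (Z₀ (ω i)))))
  set S1 := univ.filter (fun ω : Fin n → ι =>
    0 ≤ ∑ i, (-Real.log (mg w Z₁ (Z₁ (ω i))) - (ent w Z₁ + ε)))
  set S2 := univ.filter (fun ω : Fin n → ι =>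
    0 ≤ ∑ i, (-Real.log (mg w Z₂ (Z₂ (ω i))) - (ent w Z₂ + ε)))
  set S3 := univ.filter (fun ω : Fin n → ι =>
    0 ≤ ∑ i, (-Real.log (mg w Z₃ (Z₃ (ω i))) - (ent w Z₃ + ε)))
  set W : (Fin n → ι) → ℝ := fun ω => ∏ i, w (ω i)
  have hW : ∀ ω, 0 ≤ W ω := fun ω => prod_nonneg fun i _ => (hw _).le
  have un : ∀ A B : Finset (Fin n → ι), ∑ ω ∈ A ∪ B, W ω ≤ ∑ ω ∈ A, W ω + ∑ ω ∈ B, W ω := by
    intro A B
    rw [← sum_union_inter]
    linarith [sum_nonneg fun ω (_ : ω ∈ A ∩ B) => hW ω]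
  have tot : ∑ ω, W ω = 1 := by
    have := prod_univ_sum (fun _ : Fin n => (univ : Finset ι)) (fun _ j => w j)
    rw [Fintype.piFinset_univ] at this
    rw [← this]; simp [h1]
  set G := (S0 ∪ S1 ∪ S2 ∪ S3)ᶜ
  have hG : 1 / 2 ≤ ∑ ω ∈ G, W ω := by
    have := sum_compl_add_sum (S0 ∪ S1 ∪ S2 ∪ S3) W
    linarith [un (S0 ∪ S1 ∪ S2) S3, un (S0 ∪ S1) S2, un S0 S1]
  have mem : ∀ ω ∈ G, ω ∉ S0 ∧ ω ∉ S1 ∧ ω ∉ S2 ∧ ω ∉ S3 := by
    intro ω hω
    simp only [G, mem_compl, mem_union, not_or] at hω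
    tauto
  have hu : ∀ (Z : ι → ℤ) (ω : Fin n → ι), ω ∉ univ.filter (fun ω : Fin n → ι =>
      0 ≤ ∑ i, (-Real.log (mg w Z (Z (ω i))) - (ent w Z + ε))) →
      ∑ i, -Real.log (mg w Z (Z (ω i))) ≤ n * (ent w Z + ε) := by
    intro Z ω h
    simp only [mem_filter, mem_univ, true_and, not_le, sum_sub_distrib, sum_const, card_univ,
      Fintype.card_fin, nsmul_eq_mul] at h
    linarith
  refine ⟨G, ?_, ?_, card_upper hw h1 _ _ _ fun ω hω => hu _ _ (mem ω hω).2.1,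
    card_upper hw h1 _ _ _ fun ω hω => hu _ _ (mem ω hω).2.2.1,
    card_upper hw h1 _ _ _ fun ω hω => hu _ _ (mem ω hω).2.2.2⟩
  · by_contra h
    rw [not_nonempty_iff_eq_empty] at h
    rw [h, sum_empty] at hG
    norm_num at hG
  · refine le_trans ?_ (card_lower hw Z₀ G (n * (ent w Z₀ - ε)) ?_)
    · exact mul_le_mul_of_nonneg_right hG (Real.exp_pos _).le
    · intro ω hω
      have h := (mem ω hω).1
      simp only [S0, mem_filter, mem_univ, true_and, not_le] at h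
      rw [sum_sub_distrib, sum_const, card_univ, Fintype.card_fin, nsmul_eq_mul] at h
      linarith

end Vale.Agent.P141
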